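import Vale.Agent.P124.DenseSub

namespace Vale.Agent.Results.P124.DenseSubspaces

/-- The subspace `E` is the union of an increasing sequence of closed subspaces. -/
def IsCountableUnionOfClosed {X : Type} [NormedAddCommGroup X] [NormedSpace ℝ X]
    (E : Submodule ℝ X) : Prop :=
  ∃ A : ℕ → Submodule ℝ X, Monotone A ∧ (∀ n, IsClosed (A n : Set X)) ∧
    (E : Set X) = ⋃ n, (A n : Set X)

/-- There are a separable Banach space `X` and dense linear subspaces `E`, `F` of `X`, both
increasing unions of sequences of closed (hence complete) subspaces, and a Lipschitz bijection of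
`X` onto itself with Lipschitz inverse that maps `E` onto `F`, although the normed spaces `E` and
`F` are not linearly homeomorphic. -/
theorem result :
    ∃ (X : Type) (_ : NormedAddCommGroup X) (_ : NormedSpace ℝ X),
      CompleteSpace X ∧ TopologicalSpace.SeparableSpace X ∧ ∃ E F : Submodule ℝ X,
        Dense (E : Set X) ∧ Dense (F : Set X) ∧
        IsCountableUnionOfClosed E ∧ IsCountableUnionOfClosed F ∧
        (∃ Φ : X ≃ X, (∃ K, LipschitzWith K Φ) ∧ (∃ K, LipschitzWith K Φ.symm) ∧
          Φ '' (E : Set X) = (F : Set X)) ∧
        IsEmpty (E ≃L[ℝ] F) :=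
  Vale.Agent.P124.dense_main

end Vale.Agent.Results.P124.DenseSubspaces
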