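import Vale.Agent.P124.Incomplete

namespace Vale.Agent.Results.P124.LipschitzRetract

/-- The real Banach space of absolutely summable sequences. -/
abbrev EllOne : Type := lp (fun _ : ℕ => ℝ) 1

/-- The subspace `Y` of `X` is a Lipschitz retract of `X`, with constant `K`. -/
def IsLipRetract {X : Type} [NormedAddCommGroup X] [NormedSpace ℝ X] (K : NNReal)
    (Y : Submodule ℝ X) : Prop :=
  ∃ r : X → X, LipschitzWith K r ∧ (∀ x, r x ∈ Y) ∧ ∀ x ∈ Y, r x = x

/-- Some Lipschitz bijection of `X` onto itself with Lipschitz inverse maps `Y` onto `Z`. -/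
def LipPair {X : Type} [NormedAddCommGroup X] [NormedSpace ℝ X] (Y Z : Submodule ℝ X) : Prop :=
  ∃ Φ : X ≃ X, (∃ K, LipschitzWith K Φ) ∧ (∃ K, LipschitzWith K Φ.symm) ∧
    Φ '' (Y : Set X) = (Z : Set X)

/-- Some linear homeomorphism of `X` onto itself maps `Y` onto `Z`. -/
def LinPair {X : Type} [NormedAddCommGroup X] [NormedSpace ℝ X] (Y Z : Submodule ℝ X) : Prop :=
  ∃ L : X ≃L[ℝ] X, L '' (Y : Set X) = (Z : Set X)

/-- The subspace `D x 0` of `X x D`. -/
def left {X : Type} [NormedAddCommGroup X] [NormedSpace ℝ X] (D : Submodule ℝ X) :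
    Submodule ℝ (X × D) := Submodule.prod D ⊥

/-- The subspace `0 x D` of `X x D`. -/
def right {X : Type} [NormedAddCommGroup X] [NormedSpace ℝ X] (D : Submodule ℝ X) :
    Submodule ℝ (X × D) := Submodule.prod ⊥ ⊤

/-- Some Lipschitz bijection of `E` onto `F` has a Lipschitz inverse. -/
def LipIso (E F : Type) [NormedAddCommGroup E] [NormedAddCommGroup F] : Prop :=
  ∃ f : E ≃ F, (∃ K, LipschitzWith K f) ∧ ∃ K, LipschitzWith K f.symm

/-- (A) There is a closed subspace `D` of the real sequence space `l_1` such that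
(1) `D` is a Lipschitz retract of `l_1` (constant 48),
(2) `D` is not complemented in `l_1`,
(3) some bi-Lipschitz bijection of the Banach space `l_1 x D` onto itself maps the closed
subspace `D x 0` onto the closed subspace `0 x D`,
(4) no linear isomorphism of `l_1 x D` onto itself maps `D x 0` onto `0 x D`.
(B) There are separable normed spaces (not complete) that are Lipschitz isomorphic and not
linearly isomorphic. -/
theorem result :
    (∃ D : Submodule ℝ EllOne, IsClosed (D : Set EllOne) ∧ IsLipRetract 48 D ∧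
      (¬ D.ClosedComplemented) ∧ LipPair (left D) (right D) ∧ ¬ LinPair (left D) (right D)) ∧
    ∃ (E F : Type) (_ : NormedAddCommGroup E) (_ : NormedSpace ℝ E) (_ : NormedAddCommGroup F)
      (_ : NormedSpace ℝ F),
      TopologicalSpace.SeparableSpace E ∧ TopologicalSpace.SeparableSpace F ∧
      LipIso E F ∧ IsEmpty (E ≃L[ℝ] F) := by
  refine ⟨?_, ⟨Vale.Agent.P124.Zs Vale.Agent.P124.Y1, Vale.Agent.P124.Zs Vale.Agent.P124.Y2,
    inferInstance, inferInstance, inferInstance, inferInstance,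
    Vale.Agent.P124.sep_Zs _, Vale.Agent.P124.sep_Zs _, Vale.Agent.P124.incomplete_lip,
    Vale.Agent.P124.incomplete_lin⟩⟩
  have h1 : ((left Vale.Agent.P124.D : Submodule ℝ (EllOne × Vale.Agent.P124.D)) :
      Set (EllOne × Vale.Agent.P124.D)) = {z | z.1 ∈ Vale.Agent.P124.D ∧ z.2 = 0} := by
    ext z
    simp [left]
  have h2 : ((right Vale.Agent.P124.D : Submodule ℝ (EllOne × Vale.Agent.P124.D)) :
      Set (EllOne × Vale.Agent.P124.D)) = {z | z.1 = 0} := by
    ext z
    simp [right]
  refine ⟨Vale.Agent.P124.D, Vale.Agent.P124.D_closed,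
    ⟨Vale.Agent.P124.ret, Vale.Agent.P124.ret_lip, Vale.Agent.P124.ret_mem,
      fun _ h => Vale.Agent.P124.ret_id h⟩,
    Vale.Agent.P124.not_compl, ?_, ?_⟩
  · obtain ⟨Φ, a, b, c⟩ := Vale.Agent.P124.klee
    refine ⟨Φ, a, b, ?_⟩
    rw [h1, h2]
    exact c
  · rintro ⟨L, hL⟩
    rw [h1, h2] at hL
    exact Vale.Agent.P124.no_linear ⟨L, hL⟩

end Vale.Agent.Results.P124.LipschitzRetract
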