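import Vale.Agent.P124.Incomplete

namespace Vale.Agent.Results.P124.NormedSpaces

/-- There are separable real normed spaces `E`, `F` (not complete) that are Lipschitz isomorphic
and not linearly isomorphic. -/
theorem result :
    ∃ (E F : Type) (_ : NormedAddCommGroup E) (_ : NormedSpace ℝ E) (_ : NormedAddCommGroup F)
      (_ : NormedSpace ℝ F),
      TopologicalSpace.SeparableSpace E ∧ TopologicalSpace.SeparableSpace F ∧
      (∃ f : E ≃ F, (∃ K, LipschitzWith K f) ∧ ∃ K, LipschitzWith K f.symm) ∧
      IsEmpty (E ≃L[ℝ] F) :=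
  ⟨Vale.Agent.P124.Zs Vale.Agent.P124.Y1, Vale.Agent.P124.Zs Vale.Agent.P124.Y2,
    inferInstance, inferInstance, inferInstance, inferInstance,
    Vale.Agent.P124.sep_Zs _, Vale.Agent.P124.sep_Zs _, Vale.Agent.P124.incomplete_lip,
    Vale.Agent.P124.incomplete_lin⟩

end Vale.Agent.Results.P124.NormedSpaces
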